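import Mathlib

/-!
# Points of exact middle density

For a measurable set `E` of reals, such that both `E` and its complement have positive measure
in the interval `(a, b)`, and for every `p` in `(0, 1)`, there is a nested sequence of closed
intervals with lengths `L / 2 ^ n`, in each of which `E` has density exactly `p`.
-/

open MeasureTheory Set Filter Topology

namespace Vale.Agent.P097.H667

/-- measure of `E` in the interval `[t, t + l]` -/
noncomputable def mE (E : Set ℝ) (t l : ℝ) : ℝ := volume.real (E ∩ Icc t (t + l))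

/-- a primitive of the indicator of `E` -/
noncomputable def prim (E : Set ℝ) (x : ℝ) : ℝ := ∫ s in (0 : ℝ)..x, E.indicator (fun _ => (1 : ℝ)) s

theorem indicator_intervalIntegrable {E : Set ℝ} (hE : MeasurableSet E) (x y : ℝ) :
    IntervalIntegrable (E.indicator (fun _ => (1 : ℝ))) volume x y := by
  have h : IntervalIntegrable (fun _ : ℝ => (1 : ℝ)) volume x y := intervalIntegrable_const
  exact ⟨h.1.indicator hE, h.2.indicator hE⟩

theorem continuous_prim {E : Set ℝ} (hE : MeasurableSet E) : Continuous (prim E) :=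
  intervalIntegral.continuous_primitive (fun x y => indicator_intervalIntegrable hE x y) 0

theorem mE_eq {E : Set ℝ} (hE : MeasurableSet E) (t : ℝ) {l : ℝ} (hl : 0 ≤ l) :
    mE E t l = prim E (t + l) - prim E t := by
  have h1 : prim E (t + l) - prim E t
      = ∫ s in t..(t + l), E.indicator (fun _ => (1 : ℝ)) s := by
    unfold prim
    exact intervalIntegral.integral_interval_sub_left
      (indicator_intervalIntegrable hE _ _) (indicator_intervalIntegrable hE _ _)
  rw [h1, intervalIntegral.integral_of_le (by linarith), integral_indicator hE,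
    Measure.restrict_restrict hE]
  simp only [integral_const, smul_eq_mul, mul_one, mE]
  rw [Measure.real, Measure.real, Measure.restrict_apply_univ]
  congr 1
  apply measure_congr
  exact (ae_eq_refl E).inter Ioc_ae_eq_Icc.symm

theorem mE_add {E : Set ℝ} (hE : MeasurableSet E) (t : ℝ) {l m : ℝ} (hl : 0 ≤ l) (hm : 0 ≤ m) :
    mE E t (l + m) = mE E t l + mE E (t + l) m := by
  rw [mE_eq hE t (by linarith), mE_eq hE t hl, mE_eq hE (t + l) hm]
  have : t + (l + m) = t + l + m := by ring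
  rw [this]; ring

theorem continuous_mE {E : Set ℝ} (hE : MeasurableSet E) {l : ℝ} (hl : 0 ≤ l) :
    Continuous (fun t => mE E t l) := by
  have : (fun t => mE E t l) = fun t => prim E (t + l) - prim E t := by
    funext t; exact mE_eq hE t hl
  rw [this]
  exact ((continuous_prim hE).comp (continuous_id.add continuous_const)).sub (continuous_prim hE)

theorem mE_compl {E : Set ℝ} (hE : MeasurableSet E) (t : ℝ) {l : ℝ} (hl : 0 ≤ l) :
    mE E t l + volume.real (Icc t (t + l) \ E) = l := by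
  have h := measureReal_inter_add_sdiff (μ := volume) (s := Icc t (t + l)) hE
    (by rw [Real.volume_Icc]; exact ENNReal.ofReal_ne_top)
  rw [inter_comm] at h
  unfold mE
  rw [h, Real.volume_real_Icc]
  rw [max_eq_left (by linarith)]; ring

/-- intermediate value: between two intervals of the same length -/
theorem exists_between {E : Set ℝ} (hE : MeasurableSet E) {l q : ℝ} (hl : 0 ≤ l) {s t : ℝ}
    (hs : q ≤ mE E s l) (ht : mE E t l ≤ q) :
    ∃ x ∈ uIcc s t, mE E x l = q := by
  have hc : ContinuousOn (fun x => mE E x l) (uIcc s t) := (continuous_mE hE hl).continuousOn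
  have := intermediate_value_uIcc hc
  have hq : q ∈ uIcc (mE E s l) (mE E t l) := by
    rw [mem_uIcc]; right; exact ⟨ht, hs⟩
  obtain ⟨x, hx, hxq⟩ := this hq
  exact ⟨x, hx, hxq⟩

/-- the halving step -/
theorem half_step {E : Set ℝ} (hE : MeasurableSet E) {l p : ℝ} (hl : 0 ≤ l) {t : ℝ}
    (h : mE E t (2 * l) = p * (2 * l)) :
    ∃ x, t ≤ x ∧ x + l ≤ t + 2 * l ∧ mE E x l = p * l := by
  have hadd := mE_add hE t hl hl
  rw [← two_mul, h] at hadd
  rcases le_total (p * l) (mE E t l) with h1 | h1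
  · have h2 : mE E (t + l) l ≤ p * l := by linarith
    obtain ⟨x, hx, hxq⟩ := exists_between hE hl h1 h2
    rw [uIcc_of_le (by linarith)] at hx
    exact ⟨x, hx.1, by linarith [hx.2], hxq⟩
  · have h2 : p * l ≤ mE E (t + l) l := by linarith
    obtain ⟨x, hx, hxq⟩ := exists_between hE hl h2 h1
    rw [uIcc_of_ge (by linarith)] at hx
    exact ⟨x, hx.1, by linarith [hx.2], hxq⟩

/-- a point of density of `G` gives small balls in which `G` has density more than `q < 1` -/
theorem exists_density {G : Set ℝ} (h : volume G ≠ 0) {q : ℝ} (hq : q < 1) :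
    ∃ x ∈ G, ∀ᶠ r in 𝓝[>] (0 : ℝ), q * (2 * r) < volume.real (G ∩ Icc (x - r) (x + r)) := by
  have hae := Besicovitch.ae_tendsto_measure_inter_div (volume : Measure ℝ) G
  have hne : (volume.restrict G) ≠ 0 := by
    intro h0
    exact h (by simpa using congrArg (fun m : Measure ℝ => m univ) h0)
  have hmem : ∃ x ∈ G, Tendsto (fun r => volume (G ∩ Metric.closedBall x r)
      / volume (Metric.closedBall x r)) (𝓝[>] 0) (𝓝 1) := by
    by_contra hcon
    push Not at hcon
    have : ∀ᵐ x ∂(volume.restrict G), x ∉ G := by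
      filter_upwards [hae] with x hx hxG
      exact hcon x hxG hx
    have hG0 : volume G = 0 := by
      obtain ⟨Z, hZ, hZm, hZ0⟩ := exists_measurable_superset_of_null (ae_iff.1 this)
      have hsub : G ⊆ Z := fun x hx => hZ (by simpa using hx)
      have h1 : volume (Z ∩ G) = 0 := by rw [← Measure.restrict_apply hZm]; exact hZ0
      rwa [inter_eq_self_of_subset_right hsub] at h1
    exact h hG0
  obtain ⟨x, hxG, hx⟩ := hmem
  refine ⟨x, hxG, ?_⟩
  have hlt : ENNReal.ofReal q < 1 := by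
    rw [← ENNReal.ofReal_one]; exact (ENNReal.ofReal_lt_ofReal_iff one_pos).2 hq
  filter_upwards [hx.eventually (lt_mem_nhds hlt), self_mem_nhdsWithin] with r hr hr0
  have hr0' : (0 : ℝ) < r := hr0
  rw [Real.closedBall_eq_Icc, Real.volume_Icc] at hr
  have e : x + r - (x - r) = 2 * r := by ring
  rw [e] at hr
  have hpos : (0 : ℝ) < 2 * r := by linarith
  have h0 : ENNReal.ofReal (2 * r) ≠ 0 := by simpa using hpos
  have h1 := (ENNReal.lt_div_iff_mul_lt (Or.inl h0) (Or.inl ENNReal.ofReal_ne_top)).1 hr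
  have hfin : volume (G ∩ Icc (x - r) (x + r)) ≠ ⊤ :=
    ((measure_mono inter_subset_right).trans_lt (by
      rw [Real.volume_Icc]; exact ENNReal.ofReal_lt_top)).ne
  rcases le_or_gt 0 q with hq0 | hq0
  · rw [← ENNReal.ofReal_mul hq0] at h1
    exact (ENNReal.ofReal_lt_iff_lt_toReal (by positivity) hfin).1 h1
  · calc q * (2 * r) < 0 := by nlinarith
      _ ≤ _ := measureReal_nonneg

/-- an interval with exact density `p` -/
theorem exists_start {E : Set ℝ} (hE : MeasurableSet E) {a b p : ℝ} (hp0 : 0 < p) (hp1 : p < 1)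
    (h1 : volume (E ∩ Ioo a b) ≠ 0) (h2 : volume (Ioo a b \ E) ≠ 0) :
    ∃ t l : ℝ, 0 < l ∧ a < t ∧ t + l < b ∧ mE E t l = p * l := by
  obtain ⟨x, hx, hxr⟩ := exists_density h1 hp1
  obtain ⟨y, hy, hyr⟩ := exists_density h2 (q := 1 - p) (by linarith)
  have hx' : ∀ᶠ r in 𝓝[>] (0 : ℝ), a < x - r ∧ x + r < b := by
    have : ∀ᶠ r in 𝓝 (0 : ℝ), a < x - r ∧ x + r < b := by
      have e1 : Tendsto (fun r : ℝ => x - r) (𝓝 0) (𝓝 (x - 0)) := tendsto_const_nhds.sub tendsto_id
      have e2 : Tendsto (fun r : ℝ => x + r) (𝓝 0) (𝓝 (x + 0)) := tendsto_const_nhds.add tendsto_id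
      rw [sub_zero] at e1; rw [add_zero] at e2
      exact (e1.eventually (lt_mem_nhds hx.2.1)).and (e2.eventually (gt_mem_nhds hx.2.2))
    exact this.filter_mono nhdsWithin_le_nhds
  have hy' : ∀ᶠ r in 𝓝[>] (0 : ℝ), a < y - r ∧ y + r < b := by
    have : ∀ᶠ r in 𝓝 (0 : ℝ), a < y - r ∧ y + r < b := by
      have e1 : Tendsto (fun r : ℝ => y - r) (𝓝 0) (𝓝 (y - 0)) := tendsto_const_nhds.sub tendsto_id
      have e2 : Tendsto (fun r : ℝ => y + r) (𝓝 0) (𝓝 (y + 0)) := tendsto_const_nhds.add tendsto_id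
      rw [sub_zero] at e1; rw [add_zero] at e2
      exact (e1.eventually (lt_mem_nhds hy.1.1)).and (e2.eventually (gt_mem_nhds hy.1.2))
    exact this.filter_mono nhdsWithin_le_nhds
  obtain ⟨r, ⟨⟨⟨hr1, hr2⟩, hr3⟩, hr4⟩, hr0⟩ :=
    ((((hxr.and hyr).and hx').and hy').and self_mem_nhdsWithin).exists
  have hr0' : (0 : ℝ) < r := hr0
  have hl : (0 : ℝ) ≤ 2 * r := by linarith
  have e1 : p * (2 * r) ≤ mE E (x - r) (2 * r) := by
    unfold mE
    have : x - r + 2 * r = x + r := by ring
    rw [this]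
    refine hr1.le.trans ?_
    apply measureReal_mono
    · intro z hz; exact ⟨hz.1.1, hz.2⟩
    · exact ((measure_mono inter_subset_right).trans_lt (by
        rw [Real.volume_Icc]; exact ENNReal.ofReal_lt_top)).ne
  have e2 : mE E (y - r) (2 * r) ≤ p * (2 * r) := by
    have h3 := mE_compl hE (y - r) hl
    have h4 : (1 - p) * (2 * r) ≤ volume.real (Icc (y - r) (y - r + 2 * r) \ E) := by
      have : y - r + 2 * r = y + r := by ring
      rw [this]
      refine hr2.le.trans ?_
      apply measureReal_mono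
      · intro z hz; exact ⟨hz.2, hz.1.2⟩
      · exact ((measure_mono sdiff_subset).trans_lt (by
          rw [Real.volume_Icc]; exact ENNReal.ofReal_lt_top)).ne
    linarith
  obtain ⟨t, ht, htq⟩ := exists_between hE hl e1 e2
  have ht' := ht
  rw [mem_uIcc] at ht'
  refine ⟨t, 2 * r, by linarith, ?_, ?_, htq⟩
  · rcases ht' with h | h
    · linarith [h.1, hr3.1]
    · linarith [h.1, hr4.1]
  · rcases ht' with h | h
    · linarith [h.2, hr4.2]
    · linarith [h.2, hr3.2]

/-- nested intervals with exact density `p` and their common point -/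
theorem exists_mid {E : Set ℝ} (hE : MeasurableSet E) {a b p : ℝ} (hp0 : 0 < p) (hp1 : p < 1)
    (h1 : volume (E ∩ Ioo a b) ≠ 0) (h2 : volume (Ioo a b \ E) ≠ 0) :
    ∃ (c : ℕ → ℝ) (L y : ℝ), 0 < L ∧ (∀ n, a < c n ∧ c n + L / 2 ^ n < b) ∧
      (∀ n, c n ≤ c (n + 1) ∧ c (n + 1) + L / 2 ^ (n + 1) ≤ c n + L / 2 ^ n) ∧
      (∀ n, y ∈ Icc (c n) (c n + L / 2 ^ n)) ∧
      ∀ n, volume.real (E ∩ Icc (c n) (c n + L / 2 ^ n)) = p * (L / 2 ^ n) := by
  obtain ⟨t, L, hL, hat, htb, htL⟩ := exists_start hE hp0 hp1 h1 h2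
  have step : ∀ (n : ℕ) (s : ℝ), mE E s (L / 2 ^ n) = p * (L / 2 ^ n) →
      ∃ x, s ≤ x ∧ x + L / 2 ^ (n + 1) ≤ s + L / 2 ^ n ∧
        mE E x (L / 2 ^ (n + 1)) = p * (L / 2 ^ (n + 1)) := by
    intro n s hs
    have e : L / 2 ^ n = 2 * (L / 2 ^ (n + 1)) := by rw [pow_succ]; field_simp
    have hl : (0 : ℝ) ≤ L / 2 ^ (n + 1) := by positivity
    rw [e] at hs
    obtain ⟨x, hx1, hx2, hx3⟩ := half_step hE hl hs
    exact ⟨x, hx1, by rw [e]; exact hx2, hx3⟩
  choose f hf1 hf2 hf3 using step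
  let c' : (n : ℕ) → {s : ℝ // mE E s (L / 2 ^ n) = p * (L / 2 ^ n)} := fun n =>
    Nat.rec (motive := fun n => {s : ℝ // mE E s (L / 2 ^ n) = p * (L / 2 ^ n)})
      ⟨t, by simpa using htL⟩ (fun n s => ⟨f n s.1 s.2, hf3 n s.1 s.2⟩) n
  let c : ℕ → ℝ := fun n => (c' n).1
  have hc0 : c 0 = t := rfl
  have hstep : ∀ n, c n ≤ c (n + 1) ∧ c (n + 1) + L / 2 ^ (n + 1) ≤ c n + L / 2 ^ n := by
    intro n
    exact ⟨hf1 n (c' n).1 (c' n).2, hf2 n (c' n).1 (c' n).2⟩
  have hmono : Monotone c := monotone_nat_of_le_succ fun n => (hstep n).1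
  have hanti : Antitone fun n => c n + L / 2 ^ n := antitone_nat_of_succ_le fun n => (hstep n).2
  have hpos : ∀ n : ℕ, (0 : ℝ) < L / 2 ^ n := fun n => by positivity
  have hcross : ∀ m n, c m ≤ c n + L / 2 ^ n := by
    intro m n
    rcases le_total m n with h | h
    · have := hmono h
      linarith [hpos n]
    · have := hanti h
      have h3 := hpos m
      simp only at this
      linarith
  refine ⟨c, L, ⨆ n, c n, hL, ?_, hstep, ?_, fun n => (c' n).2⟩
  · intro n
    constructor
    · have := hmono (Nat.zero_le n)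
      rw [hc0] at this; linarith
    · have := hanti (Nat.zero_le n)
      simp only [pow_zero, div_one, hc0] at this
      linarith
  · intro n
    have hb : BddAbove (range c) := ⟨c n + L / 2 ^ n, by rintro _ ⟨m, rfl⟩; exact hcross m n⟩
    exact ⟨le_ciSup hb n, ciSup_le fun m => hcross m n⟩

/-- the common point is a point of middle density at all scales -/
theorem exists_mid_density {E : Set ℝ} (hE : MeasurableSet E) {a b p : ℝ} (hp0 : 0 < p)
    (hp1 : p < 1) (h1 : volume (E ∩ Ioo a b) ≠ 0) (h2 : volume (Ioo a b \ E) ≠ 0) :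
    ∃ (c : ℕ → ℝ) (L y : ℝ), 0 < L ∧ (∀ n, a < c n ∧ c n + L / 2 ^ n < b) ∧
      (∀ n, c n ≤ c (n + 1) ∧ c (n + 1) + L / 2 ^ (n + 1) ≤ c n + L / 2 ^ n) ∧
      (∀ n, y ∈ Icc (c n) (c n + L / 2 ^ n)) ∧
      (∀ n, volume.real (E ∩ Icc (c n) (c n + L / 2 ^ n)) = p * (L / 2 ^ n)) ∧
      (∀ S, 0 < S → S ≤ L → p * S / 2 ≤ volume.real (E ∩ Icc (y - S) (y + S)) ∧
        (1 - p) * S / 2 ≤ volume.real (Icc (y - S) (y + S) \ E)) := by
  obtain ⟨c, L, y, hL, hab, hstep, hy, hd⟩ := exists_mid hE hp0 hp1 h1 h2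
  refine ⟨c, L, y, hL, hab, hstep, hy, hd, ?_⟩
  intro S hS hSL
  have hex : ∃ n : ℕ, L / 2 ^ n ≤ S := by
    obtain ⟨n, hn⟩ := pow_unbounded_of_one_lt (L / S) (one_lt_two : (1 : ℝ) < 2)
    refine ⟨n, ?_⟩
    rw [div_lt_iff₀ hS] at hn
    rw [div_le_iff₀ (by positivity)]
    linarith
  classical
  obtain ⟨n, hn, hmin⟩ : ∃ n : ℕ, L / 2 ^ n ≤ S ∧ S ≤ 2 * (L / 2 ^ n) := by
    refine ⟨Nat.find hex, Nat.find_spec hex, ?_⟩
    rcases Nat.eq_zero_or_pos (Nat.find hex) with h0 | h0
    · rw [h0]; simp only [pow_zero, div_one]; linarith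
    · obtain ⟨m, hm⟩ := Nat.exists_eq_succ_of_ne_zero h0.ne'
      have hlt : m < Nat.find hex := by omega
      have h3 := Nat.find_min hex hlt
      rw [hm, Nat.succ_eq_add_one, pow_succ]
      have : 2 * (L / (2 ^ m * 2)) = L / 2 ^ m := by field_simp
      rw [this]; exact (not_le.1 h3).le
  have hsub : Icc (c n) (c n + L / 2 ^ n) ⊆ Icc (y - S) (y + S) := by
    intro z hz
    have hyn := hy n
    constructor
    · linarith [hz.1, hyn.2]
    · linarith [hz.2, hyn.1]
  have hfin : volume (Icc (y - S) (y + S)) ≠ ⊤ := by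
    rw [Real.volume_Icc]; exact ENNReal.ofReal_ne_top
  have hln : (0 : ℝ) ≤ L / 2 ^ n := by positivity
  constructor
  · have h3 : volume.real (E ∩ Icc (c n) (c n + L / 2 ^ n))
        ≤ volume.real (E ∩ Icc (y - S) (y + S)) :=
      measureReal_mono (inter_subset_inter_right _ hsub)
        ((measure_mono inter_subset_right).trans_lt (lt_top_iff_ne_top.2 hfin)).ne
    rw [hd n] at h3
    nlinarith
  · have h3 : volume.real (Icc (c n) (c n + L / 2 ^ n) \ E)
        ≤ volume.real (Icc (y - S) (y + S) \ E) :=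
      measureReal_mono (sdiff_subset_sdiff_left hsub)
        ((measure_mono sdiff_subset).trans_lt (lt_top_iff_ne_top.2 hfin)).ne
    have h4 := mE_compl hE (c n) hln
    unfold mE at h4
    rw [hd n] at h4
    nlinarith

end Vale.Agent.P097.H667
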