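import Mathlib

/-!
# Nested intervals on which a function has a prescribed mean

For a locally integrable real function `f` which is larger than `v` on a set of positive measure of
`(a, b)` and smaller than `v` on a set of positive measure of `(a, b)` there are nested closed
intervals of lengths `L / 2 ^ n` in `(a, b)` on which the mean of `f` is exactly `v`.
-/

open MeasureTheory Set Filter Topology

namespace Vale.Agent.P097.H667

section

variable {f : ℝ → ℝ}

/-- integral over `[t, t + l]` -/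
noncomputable def mF (f : ℝ → ℝ) (t l : ℝ) : ℝ := ∫ s in t..(t + l), f s

theorem ii_of_loc (hf : LocallyIntegrable f volume) (x y : ℝ) : IntervalIntegrable f volume x y :=
  (hf.integrableOn_isCompact isCompact_uIcc).intervalIntegrable

theorem mF_eq (hf : LocallyIntegrable f volume) (t l : ℝ) :
    mF f t l = (∫ s in (0 : ℝ)..(t + l), f s) - ∫ s in (0 : ℝ)..t, f s := by
  unfold mF
  exact (intervalIntegral.integral_interval_sub_left (ii_of_loc hf _ _) (ii_of_loc hf _ _)).symm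

theorem mF_add (hf : LocallyIntegrable f volume) (t l m : ℝ) :
    mF f t (l + m) = mF f t l + mF f (t + l) m := by
  rw [mF_eq hf, mF_eq hf, mF_eq hf]
  have : t + (l + m) = t + l + m := by ring
  rw [this]; ring

theorem continuous_mF (hf : LocallyIntegrable f volume) (l : ℝ) :
    Continuous (fun t => mF f t l) := by
  have hc : Continuous (fun x => ∫ s in (0 : ℝ)..x, f s) :=
    intervalIntegral.continuous_primitive (fun x y => ii_of_loc hf x y) 0
  have : (fun t => mF f t l) =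
      fun t => (∫ s in (0 : ℝ)..(t + l), f s) - ∫ s in (0 : ℝ)..t, f s := by
    funext t; exact mF_eq hf t l
  rw [this]
  exact (hc.comp (continuous_id.add continuous_const)).sub hc

theorem exists_betweenF (hf : LocallyIntegrable f volume) {l q : ℝ} {s t : ℝ}
    (hs : q ≤ mF f s l) (ht : mF f t l ≤ q) :
    ∃ x ∈ uIcc s t, mF f x l = q := by
  have hc : ContinuousOn (fun x => mF f x l) (uIcc s t) := (continuous_mF hf l).continuousOn
  have := intermediate_value_uIcc hc
  have hq : q ∈ uIcc (mF f s l) (mF f t l) := by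
    rw [mem_uIcc]; right; exact ⟨ht, hs⟩
  obtain ⟨x, hx, hxq⟩ := this hq
  exact ⟨x, hx, hxq⟩

/-- the halving step -/
theorem half_stepF (hf : LocallyIntegrable f volume) {l v : ℝ} (hl : 0 ≤ l) {t : ℝ}
    (h : mF f t (2 * l) = v * (2 * l)) :
    ∃ x, t ≤ x ∧ x + l ≤ t + 2 * l ∧ mF f x l = v * l := by
  have hadd := mF_add hf t l l
  rw [← two_mul, h] at hadd
  rcases le_total (v * l) (mF f t l) with h1 | h1
  · have h2 : mF f (t + l) l ≤ v * l := by linarith
    obtain ⟨x, hx, hxq⟩ := exists_betweenF hf h1 h2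
    rw [uIcc_of_le (by linarith)] at hx
    exact ⟨x, hx.1, by linarith [hx.2], hxq⟩
  · have h2 : v * l ≤ mF f (t + l) l := by linarith
    obtain ⟨x, hx, hxq⟩ := exists_betweenF hf h2 h1
    rw [uIcc_of_ge (by linarith)] at hx
    exact ⟨x, hx.1, by linarith [hx.2], hxq⟩

/-- a Lebesgue point with a value above `v` -/
theorem exists_leb (hf : LocallyIntegrable f volume) {a b v : ℝ}
    (h : volume {x | x ∈ Ioo a b ∧ v < f x} ≠ 0) :
    ∃ x ∈ Ioo a b, ∀ᶠ r in 𝓝[>] (0 : ℝ), v * (2 * r) < mF f (x - r) (2 * r) := by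
  have hae := IsUnifLocDoublingMeasure.ae_tendsto_average (μ := (volume : Measure ℝ)) hf 1
  have hmem : ∃ x ∈ Ioo a b, v < f x ∧
      Tendsto (fun r => ⨍ y in Metric.closedBall x r, f y) (𝓝[>] 0) (𝓝 (f x)) := by
    by_contra hcon
    push Not at hcon
    apply h
    have h0 : ∀ᵐ x ∂(volume : Measure ℝ), ¬ (x ∈ Ioo a b ∧ v < f x) := by
      filter_upwards [hae] with x hx hxG
      refine hcon x hxG.1 hxG.2 ?_
      refine hx (fun _ => x) (fun r => r) tendsto_id ?_
      filter_upwards [self_mem_nhdsWithin] with r hr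
      have hr0 : (0 : ℝ) < r := hr
      simp only [one_mul, Metric.mem_closedBall, dist_self]
      exact hr0.le
    have h4 := ae_iff.1 h0
    simp only [not_not] at h4
    exact h4
  obtain ⟨x, hx, hfx, ht⟩ := hmem
  refine ⟨x, hx, ?_⟩
  filter_upwards [ht.eventually (lt_mem_nhds hfx), self_mem_nhdsWithin] with r hr hr0
  have hr0' : (0 : ℝ) < r := hr0
  rw [Real.closedBall_eq_Icc, setAverage_eq, smul_eq_mul, Measure.real, Real.volume_Icc,
    ENNReal.toReal_ofReal (by linarith)] at hr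
  have e : x + r - (x - r) = 2 * r := by ring
  rw [e] at hr
  unfold mF
  have e2 : x - r + 2 * r = x + r := by ring
  rw [e2, intervalIntegral.integral_of_le (by linarith), ← integral_Icc_eq_integral_Ioc]
  have hpos : (0 : ℝ) < 2 * r := by linarith
  rw [inv_mul_eq_div, lt_div_iff₀ hpos] at hr
  exact hr

theorem mF_neg (t l : ℝ) : mF (fun x => -f x) t l = -mF f t l := by
  unfold mF
  exact intervalIntegral.integral_neg

/-- an interval with mean exactly `v` -/
theorem exists_startF (hf : LocallyIntegrable f volume) {a b v : ℝ}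
    (h1 : volume {x | x ∈ Ioo a b ∧ v < f x} ≠ 0) (h2 : volume {x | x ∈ Ioo a b ∧ f x < v} ≠ 0) :
    ∃ t l : ℝ, 0 < l ∧ a < t ∧ t + l < b ∧ mF f t l = v * l := by
  obtain ⟨x, hx, hxr⟩ := exists_leb hf h1
  have hf' : LocallyIntegrable (fun x => -f x) volume := hf.neg
  have h2' : volume {x | x ∈ Ioo a b ∧ -v < -f x} ≠ 0 := by
    have : {x | x ∈ Ioo a b ∧ -v < -f x} = {x | x ∈ Ioo a b ∧ f x < v} := by
      ext x; simp only [mem_ofPred_eq, neg_lt_neg_iff]
    rw [this]; exact h2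
  obtain ⟨y, hy, hyr⟩ := exists_leb hf' h2'
  have hx' : ∀ᶠ r in 𝓝[>] (0 : ℝ), a < x - r ∧ x + r < b := by
    have : ∀ᶠ r in 𝓝 (0 : ℝ), a < x - r ∧ x + r < b := by
      have e1 : Tendsto (fun r : ℝ => x - r) (𝓝 0) (𝓝 (x - 0)) := tendsto_const_nhds.sub tendsto_id
      have e2 : Tendsto (fun r : ℝ => x + r) (𝓝 0) (𝓝 (x + 0)) := tendsto_const_nhds.add tendsto_id
      rw [sub_zero] at e1; rw [add_zero] at e2
      exact (e1.eventually (lt_mem_nhds hx.1)).and (e2.eventually (gt_mem_nhds hx.2))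
    exact this.filter_mono nhdsWithin_le_nhds
  have hy' : ∀ᶠ r in 𝓝[>] (0 : ℝ), a < y - r ∧ y + r < b := by
    have : ∀ᶠ r in 𝓝 (0 : ℝ), a < y - r ∧ y + r < b := by
      have e1 : Tendsto (fun r : ℝ => y - r) (𝓝 0) (𝓝 (y - 0)) := tendsto_const_nhds.sub tendsto_id
      have e2 : Tendsto (fun r : ℝ => y + r) (𝓝 0) (𝓝 (y + 0)) := tendsto_const_nhds.add tendsto_id
      rw [sub_zero] at e1; rw [add_zero] at e2
      exact (e1.eventually (lt_mem_nhds hy.1)).and (e2.eventually (gt_mem_nhds hy.2))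
    exact this.filter_mono nhdsWithin_le_nhds
  obtain ⟨r, ⟨⟨⟨hr1, hr2⟩, hr3⟩, hr4⟩, hr0⟩ :=
    ((((hxr.and hyr).and hx').and hy').and self_mem_nhdsWithin).exists
  have hr0' : (0 : ℝ) < r := hr0
  rw [mF_neg] at hr2
  have e2 : mF f (y - r) (2 * r) ≤ v * (2 * r) := by linarith
  obtain ⟨t, ht, htq⟩ := exists_betweenF hf hr1.le e2
  have ht' := ht
  rw [mem_uIcc] at ht'
  refine ⟨t, 2 * r, by linarith, ?_, ?_, htq⟩
  · rcases ht' with h | h
    · linarith [h.1, hr3.1]
    · linarith [h.1, hr4.1]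
  · rcases ht' with h | h
    · linarith [h.2, hr4.2]
    · linarith [h.2, hr3.2]

/-- nested intervals with mean exactly `v` and their common point -/
theorem exists_midF (hf : LocallyIntegrable f volume) {a b v : ℝ}
    (h1 : volume {x | x ∈ Ioo a b ∧ v < f x} ≠ 0) (h2 : volume {x | x ∈ Ioo a b ∧ f x < v} ≠ 0) :
    ∃ (c : ℕ → ℝ) (L y : ℝ), 0 < L ∧ (∀ n, a < c n ∧ c n + L / 2 ^ n < b) ∧
      (∀ n, c n ≤ c (n + 1) ∧ c (n + 1) + L / 2 ^ (n + 1) ≤ c n + L / 2 ^ n) ∧
      (∀ n, y ∈ Icc (c n) (c n + L / 2 ^ n)) ∧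
      ∀ n, ∫ s in (c n)..(c n + L / 2 ^ n), f s = v * (L / 2 ^ n) := by
  obtain ⟨t, L, hL, hat, htb, htL⟩ := exists_startF hf h1 h2
  have step : ∀ (n : ℕ) (s : ℝ), mF f s (L / 2 ^ n) = v * (L / 2 ^ n) →
      ∃ x, s ≤ x ∧ x + L / 2 ^ (n + 1) ≤ s + L / 2 ^ n ∧
        mF f x (L / 2 ^ (n + 1)) = v * (L / 2 ^ (n + 1)) := by
    intro n s hs
    have e : L / 2 ^ n = 2 * (L / 2 ^ (n + 1)) := by rw [pow_succ]; field_simp
    have hl : (0 : ℝ) ≤ L / 2 ^ (n + 1) := by positivity
    rw [e] at hs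
    obtain ⟨x, hx1, hx2, hx3⟩ := half_stepF hf hl hs
    exact ⟨x, hx1, by rw [e]; exact hx2, hx3⟩
  choose g hg1 hg2 hg3 using step
  let c' : (n : ℕ) → {s : ℝ // mF f s (L / 2 ^ n) = v * (L / 2 ^ n)} := fun n =>
    Nat.rec (motive := fun n => {s : ℝ // mF f s (L / 2 ^ n) = v * (L / 2 ^ n)})
      ⟨t, by simpa using htL⟩ (fun n s => ⟨g n s.1 s.2, hg3 n s.1 s.2⟩) n
  let c : ℕ → ℝ := fun n => (c' n).1
  have hc0 : c 0 = t := rfl
  have hstep : ∀ n, c n ≤ c (n + 1) ∧ c (n + 1) + L / 2 ^ (n + 1) ≤ c n + L / 2 ^ n := by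
    intro n
    exact ⟨hg1 n (c' n).1 (c' n).2, hg2 n (c' n).1 (c' n).2⟩
  have hmono : Monotone c := monotone_nat_of_le_succ fun n => (hstep n).1
  have hanti : Antitone fun n => c n + L / 2 ^ n := antitone_nat_of_succ_le fun n => (hstep n).2
  have hpos : ∀ n : ℕ, (0 : ℝ) < L / 2 ^ n := fun n => by positivity
  have hcross : ∀ m n, c m ≤ c n + L / 2 ^ n := by
    intro m n
    rcases le_total m n with h | h
    · have := hmono h
      linarith [hpos n]
    · have := hanti h
      have h3 := hpos m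
      simp only at this
      linarith
  refine ⟨c, L, ⨆ n, c n, hL, ?_, hstep, ?_, fun n => (c' n).2⟩
  · intro n
    constructor
    · have := hmono (Nat.zero_le n)
      rw [hc0] at this; linarith
    · have := hanti (Nat.zero_le n)
      simp only [pow_zero, div_one, hc0] at this
      linarith
  · intro n
    have hb : BddAbove (range c) := ⟨c n + L / 2 ^ n, by rintro _ ⟨m, rfl⟩; exact hcross m n⟩
    exact ⟨le_ciSup hb n, ciSup_le fun m => hcross m n⟩

/-- a scale `S ≤ L` contains one of the nested intervals of length at least `S / 2` -/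
theorem exists_scale {c : ℕ → ℝ} {L y : ℝ} (hL : 0 < L)
    (hy : ∀ n, y ∈ Icc (c n) (c n + L / 2 ^ n)) {S : ℝ} (hS : 0 < S) (hSL : S ≤ L) :
    ∃ n, L / 2 ^ n ≤ S ∧ S ≤ 2 * (L / 2 ^ n) ∧ y - S ≤ c n ∧ c n + L / 2 ^ n ≤ y + S := by
  have hex : ∃ n : ℕ, L / 2 ^ n ≤ S := by
    obtain ⟨n, hn⟩ := pow_unbounded_of_one_lt (L / S) (one_lt_two : (1 : ℝ) < 2)
    refine ⟨n, ?_⟩
    rw [div_lt_iff₀ hS] at hn
    rw [div_le_iff₀ (by positivity)]
    linarith
  classical
  obtain ⟨n, hn, hmin⟩ : ∃ n : ℕ, L / 2 ^ n ≤ S ∧ S ≤ 2 * (L / 2 ^ n) := by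
    refine ⟨Nat.find hex, Nat.find_spec hex, ?_⟩
    rcases Nat.eq_zero_or_pos (Nat.find hex) with h0 | h0
    · rw [h0]; simp only [pow_zero, div_one]; linarith
    · obtain ⟨m, hm⟩ := Nat.exists_eq_succ_of_ne_zero h0.ne'
      have hlt : m < Nat.find hex := by omega
      have h3 := Nat.find_min hex hlt
      rw [hm, Nat.succ_eq_add_one, pow_succ]
      have : 2 * (L / (2 ^ m * 2)) = L / 2 ^ m := by field_simp
      rw [this]; exact (not_le.1 h3).le
  have hyn := hy n
  exact ⟨n, hn, hmin, by linarith [hyn.1, hyn.2], by linarith [hyn.1, hyn.2]⟩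

/-- the common point is a point of middle mean at all scales: for `- H ≤ f ≤ H` both
`H - f` and `H + f` have large integrals near `y` -/
theorem exists_midF_density (hf : LocallyIntegrable f volume) {H : ℝ} (hH : ∀ x, |f x| ≤ H)
    {a b v : ℝ}
    (h1 : volume {x | x ∈ Ioo a b ∧ v < f x} ≠ 0) (h2 : volume {x | x ∈ Ioo a b ∧ f x < v} ≠ 0) :
    ∃ (c : ℕ → ℝ) (L y : ℝ), 0 < L ∧ (∀ n, a < c n ∧ c n + L / 2 ^ n < b) ∧
      (∀ n, c n ≤ c (n + 1) ∧ c (n + 1) + L / 2 ^ (n + 1) ≤ c n + L / 2 ^ n) ∧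
      (∀ n, y ∈ Icc (c n) (c n + L / 2 ^ n)) ∧
      (∀ n, ∫ s in (c n)..(c n + L / 2 ^ n), f s = v * (L / 2 ^ n)) ∧
      (∀ S, 0 < S → S ≤ L → (H - v) * S / 2 ≤ ∫ s in (y - S)..(y + S), (H - f s)) ∧
      (∀ S, 0 < S → S ≤ L → (H + v) * S / 2 ≤ ∫ s in (y - S)..(y + S), (H + f s)) := by
  obtain ⟨c, L, y, hL, hab, hstep, hy, hd⟩ := exists_midF hf h1 h2
  have key : ∀ (g : ℝ → ℝ), (∀ x, 0 ≤ g x) → LocallyIntegrable g volume → ∀ w : ℝ, 0 ≤ w →
      (∀ n, ∫ s in (c n)..(c n + L / 2 ^ n), g s = w * (L / 2 ^ n)) →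
      ∀ S, 0 < S → S ≤ L → w * S / 2 ≤ ∫ s in (y - S)..(y + S), g s := by
    intro g hg0 hg w hw hgn S hS hSL
    obtain ⟨n, hn1, hn2, hn3, hn4⟩ := exists_scale hL hy hS hSL
    have hpos : (0 : ℝ) < L / 2 ^ n := by positivity
    have h3 : ∫ s in (c n)..(c n + L / 2 ^ n), g s ≤ ∫ s in (y - S)..(y + S), g s := by
      apply intervalIntegral.integral_mono_interval hn3 (by linarith) hn4
      · exact Eventually.of_forall fun x => hg0 x
      · exact ii_of_loc hg _ _
    rw [hgn n] at h3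
    nlinarith
  have hc : LocallyIntegrable (fun _ : ℝ => H) volume := locallyIntegrable_const H
  -- bounds on v
  have hv1 : v ≤ H := by
    by_contra hcon
    push Not at hcon
    apply h1
    have : {x | x ∈ Ioo a b ∧ v < f x} = ∅ := by
      ext x
      simp only [mem_ofPred_eq, mem_empty_iff_false, iff_false, not_and, not_lt]
      intro _
      linarith [(abs_le.1 (hH x)).2]
    rw [this]; exact measure_empty
  have hv2 : -H ≤ v := by
    by_contra hcon
    push Not at hcon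
    apply h2
    have : {x | x ∈ Ioo a b ∧ f x < v} = ∅ := by
      ext x
      simp only [mem_ofPred_eq, mem_empty_iff_false, iff_false, not_and, not_lt]
      intro _
      linarith [(abs_le.1 (hH x)).1]
    rw [this]; exact measure_empty
  refine ⟨c, L, y, hL, hab, hstep, hy, hd, ?_, ?_⟩
  · refine key (fun s => H - f s) (fun x => by linarith [(abs_le.1 (hH x)).2]) (hc.sub hf) (H - v)
      (by linarith) fun n => ?_
    rw [intervalIntegral.integral_sub (ii_of_loc hc _ _) (ii_of_loc hf _ _), hd n,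
      intervalIntegral.integral_const]
    simp only [add_sub_cancel_left, smul_eq_mul]
    ring
  · refine key (fun s => H + f s) (fun x => by linarith [(abs_le.1 (hH x)).1]) (hc.add hf) (H + v)
      (by linarith) fun n => ?_
    rw [intervalIntegral.integral_add (ii_of_loc hc _ _) (ii_of_loc hf _ _), hd n,
      intervalIntegral.integral_const]
    simp only [add_sub_cancel_left, smul_eq_mul]
    ring

end

end Vale.Agent.P097.H667
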